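import Mathlib
open Filter Topology InnerProductSpace Laplacian

namespace Vale.Agent.P100

variable {E : Type*} [NormedAddCommGroup E] [InnerProductSpace ℝ E] [FiniteDimensional ℝ E]

omit [FiniteDimensional ℝ E] in
/-- second derivative along a line -/
lemma iteratedFDeriv_two_eq_deriv_deriv {f : E → ℝ} {x : E} (hf : ContDiffAt ℝ 2 f x) (e : E) :
    iteratedFDeriv ℝ 2 f x ![e, e] = deriv (deriv (fun t : ℝ => f (x + t • e))) 0 := by
  rw [iteratedFDeriv_two_apply]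
  simp only [Matrix.cons_val_zero, Matrix.cons_val_one]
  have hline : HasDerivAt (fun t : ℝ => x + t • e) e 0 := by
    simpa using ((hasDerivAt_id (0:ℝ)).smul_const e).const_add x
  have hcont : Tendsto (fun t : ℝ => x + t • e) (𝓝 0) (𝓝 x) := by
    have := hline.continuousAt.tendsto
    simpa using this
  -- f differentiable near x
  have hd : ∀ᶠ y in 𝓝 x, DifferentiableAt ℝ f y := by
    have := hf.eventually (by simp)
    filter_upwards [this] with y hy
    exact hy.differentiableAt (by norm_num)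
  have h1 : (deriv (fun t : ℝ => f (x + t • e))) =ᶠ[𝓝 0] fun t => fderiv ℝ f (x + t • e) e := by
    filter_upwards [hcont.eventually hd] with t ht
    have hl : HasDerivAt (fun s : ℝ => x + s • e) e t := by
      simpa using ((hasDerivAt_id t).smul_const e).const_add x
    exact (ht.hasFDerivAt.comp_hasDerivAt t hl).deriv
  rw [h1.deriv_eq]
  have h2 : DifferentiableAt ℝ (fderiv ℝ f) x :=
    (hf.fderiv_right (m := 1) (by norm_num)).differentiableAt (by norm_num)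
  have h3 : HasDerivAt (fun t : ℝ => fderiv ℝ f (x + t • e)) (fderiv ℝ (fderiv ℝ f) x e) 0 := by
    have h2' : HasFDerivAt (fderiv ℝ f) (fderiv ℝ (fderiv ℝ f) x) (x + (0:ℝ) • e) := by
      simpa using h2.hasFDerivAt
    exact h2'.comp_hasDerivAt 0 hline
  have h4 : HasDerivAt (fun t : ℝ => fderiv ℝ f (x + t • e) e) (fderiv ℝ (fderiv ℝ f) x e e) 0 := by
    have := h3.clm_apply (hasDerivAt_const (0:ℝ) e)
    simpa using this
  exact h4.deriv.symm

/-- 1D necessary second order condition -/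
lemma deriv_deriv_nonneg_of_isLocalMin {g : ℝ → ℝ} {t : ℝ} (hmin : IsLocalMin g t)
    (hc : ContinuousAt g t) : 0 ≤ deriv (deriv g) t := by
  by_contra hneg
  push Not at hneg
  have hd : deriv g t = 0 := hmin.deriv_eq_zero
  have hmax := isLocalMax_of_deriv_deriv_neg hneg hd hc
  have hconst : g =ᶠ[𝓝 t] fun _ => g t := by
    filter_upwards [hmin, hmax] with s h1 h2
    exact le_antisymm h2 h1
  have h1 : deriv g =ᶠ[𝓝 t] fun _ => 0 := by
    have := hconst.deriv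
    simpa using this
  have h2 : deriv (deriv g) t = 0 := by
    rw [h1.deriv_eq]; simp
  linarith

lemma laplacian_nonneg_of_isLocalMin {f : E → ℝ} {x : E} (hf : ContDiffAt ℝ 2 f x)
    (hmin : IsLocalMin f x) : 0 ≤ Δ f x := by
  rw [laplacian_eq_iteratedFDeriv_stdOrthonormalBasis]
  apply Finset.sum_nonneg
  intro i _
  rw [iteratedFDeriv_two_eq_deriv_deriv hf]
  set e := (stdOrthonormalBasis ℝ E) i
  have hcont : ContinuousAt (fun t : ℝ => x + t • e) 0 := by fun_prop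
  apply deriv_deriv_nonneg_of_isLocalMin
  · have : Tendsto (fun t : ℝ => x + t • e) (𝓝 0) (𝓝 x) := by
      have := hcont.tendsto
      simpa using this
    have h := this.eventually hmin
    filter_upwards [h] with t ht
    simpa using ht
  · have h0 : ContinuousAt f (x + (0:ℝ) • e) := by simpa using hf.continuousAt
    exact ContinuousAt.comp (f := fun t : ℝ => x + t • e) (g := f) h0 hcont


/-- second derivative of `t ↦ g (N + 2 c t + t^2)` at `0`. -/
lemma deriv_deriv_comp_quadratic {g : ℝ → ℝ} {N c : ℝ} (hg : ContDiffAt ℝ 2 g N) :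
    deriv (deriv (fun t : ℝ => g (N + 2 * c * t + t ^ 2))) 0
      = 4 * c ^ 2 * deriv (deriv g) N + 2 * deriv g N := by
  set P : ℝ → ℝ := fun t => N + 2 * c * t + t ^ 2 with hP
  have hPd : ∀ t, HasDerivAt P (2 * c + 2 * t) t := by
    intro t
    have h1 : HasDerivAt (fun t : ℝ => 2 * c * t) (2 * c) t := by
      simpa using (hasDerivAt_id t).const_mul (2 * c)
    have h2 : HasDerivAt (fun t : ℝ => t ^ 2) (2 * t) t := by
      simpa using hasDerivAt_pow 2 t
    exact (h1.const_add N).add h2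
  have hP0 : P 0 = N := by simp [hP]
  have hcont : Tendsto P (𝓝 0) (𝓝 N) := by
    have := (hPd 0).continuousAt.tendsto
    rwa [hP0] at this
  have hd : ∀ᶠ y in 𝓝 N, DifferentiableAt ℝ g y := by
    filter_upwards [hg.eventually (by simp)] with y hy
    exact hy.differentiableAt (by norm_num)
  have h1 : deriv (fun t : ℝ => g (P t)) =ᶠ[𝓝 0] fun t => deriv g (P t) * (2 * c + 2 * t) := by
    filter_upwards [hcont.eventually hd] with t ht
    exact (ht.hasDerivAt.comp t (hPd t)).deriv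
  rw [h1.deriv_eq]
  have h2 : DifferentiableAt ℝ (deriv g) N := by
    have : ContDiffAt ℝ 1 (deriv g) N := by
      have := hg.fderiv_right (m := 1) (by norm_num)
      have h' : deriv g = fun y => fderiv ℝ g y 1 := by
        ext y; simp
      rw [h']
      exact this.clm_apply contDiffAt_const
    exact this.differentiableAt (by norm_num)
  have h3 : HasDerivAt (fun t => deriv g (P t)) (deriv (deriv g) N * (2 * c + 2 * 0)) 0 := by
    have h2' : HasDerivAt (deriv g) (deriv (deriv g) N) (P 0) := by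
      rw [hP0]; exact h2.hasDerivAt
    exact h2'.comp 0 (hPd 0)
  have h4 : HasDerivAt (fun t : ℝ => 2 * c + 2 * t) 2 0 := by
    simpa using ((hasDerivAt_id (0:ℝ)).const_mul 2).const_add (2 * c)
  have h5 := (h3.mul h4).deriv
  rw [show (fun t => deriv g (P t) * (2 * c + 2 * t))
    = (fun t => deriv g (P t)) * (fun t : ℝ => 2 * c + 2 * t) from rfl, h5, hP0]
  ring

lemma laplacian_radial {g : ℝ → ℝ} {x : E} (hg : ContDiffAt ℝ 2 g (‖x‖ ^ 2)) :
    Δ (fun y : E => g (‖y‖ ^ 2)) x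
      = 4 * ‖x‖ ^ 2 * deriv (deriv g) (‖x‖ ^ 2) + 2 * (Module.finrank ℝ E) * deriv g (‖x‖ ^ 2) := by
  have hcd : ContDiffAt ℝ 2 (fun y : E => g (‖y‖ ^ 2)) x :=
    hg.comp x (contDiff_norm_sq ℝ).contDiffAt
  rw [laplacian_eq_iteratedFDeriv_stdOrthonormalBasis]
  have : ∀ i, iteratedFDeriv ℝ 2 (fun y : E => g (‖y‖ ^ 2)) x
      ![(stdOrthonormalBasis ℝ E) i, (stdOrthonormalBasis ℝ E) i]
      = 4 * (inner ℝ x ((stdOrthonormalBasis ℝ E) i)) ^ 2 * deriv (deriv g) (‖x‖ ^ 2)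
        + 2 * deriv g (‖x‖ ^ 2) := by
    intro i
    rw [iteratedFDeriv_two_eq_deriv_deriv hcd, ← deriv_deriv_comp_quadratic hg]
    congr 2
    ext t
    congr 1
    rw [norm_add_sq_real, norm_smul, inner_smul_right, (stdOrthonormalBasis ℝ E).orthonormal.1 i]
    simp
    ring
  simp only [this]
  rw [Finset.sum_add_distrib, ← Finset.sum_mul, ← Finset.mul_sum,
    (stdOrthonormalBasis ℝ E).sum_sq_inner_left]
  simp
  ring


omit [FiniteDimensional ℝ E] in
lemma contDiffAt_log_norm {x : E} (hx : x ≠ 0) : ContDiffAt ℝ 2 (fun y : E => Real.log ‖y‖) x :=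
  (contDiffAt_norm ℝ hx).log (norm_ne_zero_iff.mpr hx)

lemma laplacian_log_norm {x : E} (hx : x ≠ 0) :
    Δ (fun y : E => Real.log ‖y‖) x = ((Module.finrank ℝ E : ℝ) - 2) / ‖x‖ ^ 2 := by
  have hN : 0 < ‖x‖ ^ 2 := by positivity
  set g : ℝ → ℝ := fun N => (1 / 2) * Real.log N with hg
  have hfun : (fun y : E => Real.log ‖y‖) = fun y : E => g (‖y‖ ^ 2) := by
    ext y
    simp [hg, Real.log_pow]
  have hgc : ContDiffAt ℝ 2 g (‖x‖ ^ 2) :=
    contDiffAt_const.mul (Real.contDiffAt_log.mpr hN.ne')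
  have hd1 : deriv g = fun N => (1 / 2) * N⁻¹ := by
    ext N
    simp [hg]
  have hd2 : deriv (deriv g) (‖x‖ ^ 2) = (1 / 2) * (-(‖x‖ ^ 2) ^ 2)⁻¹ := by
    rw [hd1]
    have : HasDerivAt (fun N : ℝ => (1 / 2) * N⁻¹) ((1 / 2) * (-((‖x‖ ^ 2) ^ 2)⁻¹)) (‖x‖ ^ 2) :=
      (hasDerivAt_inv hN.ne').const_mul _
    rw [this.deriv, inv_neg]
  rw [hfun, laplacian_radial hgc, hd2, hd1]
  field_simp
  ring

omit [FiniteDimensional ℝ E] in
lemma contDiffAt_norm_rpow {x : E} (hx : x ≠ 0) (s : ℝ) :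
    ContDiffAt ℝ 2 (fun y : E => ‖y‖ ^ s) x :=
  (contDiffAt_norm ℝ hx).rpow_const_of_ne (norm_ne_zero_iff.mpr hx)

lemma laplacian_norm_rpow {x : E} (hx : x ≠ 0) (s : ℝ) :
    Δ (fun y : E => ‖y‖ ^ s) x = s * (s + (Module.finrank ℝ E : ℝ) - 2) * ‖x‖ ^ (s - 2) := by
  have hn : 0 < ‖x‖ := norm_pos_iff.mpr hx
  have hN : 0 < ‖x‖ ^ 2 := by positivity
  set g : ℝ → ℝ := fun N => N ^ (s / 2) with hg
  have hfun : (fun y : E => ‖y‖ ^ s) = fun y : E => g (‖y‖ ^ 2) := by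
    ext y
    simp only [hg]
    rw [← Real.rpow_natCast, ← Real.rpow_mul (norm_nonneg y)]
    congr 1
    push_cast
    ring
  have hgc : ContDiffAt ℝ 2 g (‖x‖ ^ 2) := Real.contDiffAt_rpow_const_of_ne hN.ne'
  have hd1 : deriv g =ᶠ[𝓝 (‖x‖ ^ 2)] fun N => (s / 2) * N ^ (s / 2 - 1) := by
    filter_upwards [lt_mem_nhds hN] with N hNpos
    exact (Real.hasDerivAt_rpow_const (Or.inl hNpos.ne')).deriv
  have hd2 : deriv (deriv g) (‖x‖ ^ 2) = (s / 2) * ((s / 2 - 1) * (‖x‖ ^ 2) ^ (s / 2 - 1 - 1)) := by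
    rw [hd1.deriv_eq]
    exact ((Real.hasDerivAt_rpow_const (Or.inl hN.ne')).const_mul _).deriv
  rw [hfun, laplacian_radial hgc, hd2, hd1.eq_of_nhds]
  have e1 : (‖x‖ ^ 2) ^ (s / 2 - 1 - 1) = ‖x‖ ^ (s - 2) * (‖x‖ ^ 2)⁻¹ := by
    rw [← Real.rpow_natCast ‖x‖ 2, ← Real.rpow_mul hn.le, ← Real.rpow_neg hn.le,
      ← Real.rpow_add hn]
    congr 1
    push_cast
    ring
  have e2 : (‖x‖ ^ 2) ^ (s / 2 - 1) = ‖x‖ ^ (s - 2) := by
    rw [← Real.rpow_natCast ‖x‖ 2, ← Real.rpow_mul hn.le]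
    congr 1
    push_cast
    ring
  rw [e1, e2]
  field_simp
  ring

/-- Weak minimum principle for strictly superharmonic functions on bounded open sets. -/
lemma min_principle {Ω : Set E} (hΩ : IsOpen Ω) (hb : Bornology.IsBounded Ω) {h : E → ℝ}
    (hc : ContinuousOn h (closure Ω))
    (h2 : ∀ x ∈ Ω, ContDiffAt ℝ 2 h x ∧ Δ h x < 0) {m : ℝ}
    (hfr : ∀ x ∈ frontier Ω, m ≤ h x) : ∀ x ∈ closure Ω, m ≤ h x := by
  intro x hx
  have hK : IsCompact (closure Ω) := hb.isCompact_closure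
  obtain ⟨y, hy, hmin⟩ := hK.exists_isMinOn ⟨x, hx⟩ hc
  by_cases hyΩ : y ∈ Ω
  · exfalso
    have hloc : IsLocalMin h y := by
      filter_upwards [hΩ.mem_nhds hyΩ] with z hz
      exact hmin (subset_closure hz)
    have := laplacian_nonneg_of_isLocalMin (h2 y hyΩ).1 hloc
    linarith [(h2 y hyΩ).2]
  · have : y ∈ frontier Ω := by
      rw [frontier, hΩ.interior_eq]
      exact ⟨hy, hyΩ⟩
    exact (hfr y this).trans (hmin hx)

/-- Minimum principle on an annulus. -/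
lemma min_principle_annulus {h : E → ℝ} {r₁ r₂ m : ℝ}
    (hc : ContinuousOn h {x | r₁ ≤ ‖x‖ ∧ ‖x‖ ≤ r₂})
    (h2 : ∀ x, r₁ < ‖x‖ → ‖x‖ < r₂ → ContDiffAt ℝ 2 h x ∧ Δ h x < 0)
    (hb1 : ∀ x, ‖x‖ = r₁ → m ≤ h x) (hb2 : ∀ x, ‖x‖ = r₂ → m ≤ h x) :
    ∀ x, r₁ < ‖x‖ → ‖x‖ < r₂ → m ≤ h x := by
  intro x hx1 hx2
  set Ω : Set E := {x | r₁ < ‖x‖ ∧ ‖x‖ < r₂} with hΩdef
  have hΩ : IsOpen Ω :=
    (isOpen_lt continuous_const continuous_norm).inter (isOpen_lt continuous_norm continuous_const)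
  have hcl : closure Ω ⊆ {x | r₁ ≤ ‖x‖ ∧ ‖x‖ ≤ r₂} := by
    apply closure_minimal
    · intro y hy; exact ⟨hy.1.le, hy.2.le⟩
    · exact (isClosed_le continuous_const continuous_norm).inter
        (isClosed_le continuous_norm continuous_const)
  have hbd : Bornology.IsBounded Ω := by
    apply (Metric.isBounded_ball (x := (0 : E)) (r := r₂)).subset
    intro y hy
    simpa using hy.2
  refine min_principle hΩ hbd (hc.mono hcl) (fun y hy => h2 y hy.1 hy.2) ?_ x
    (subset_closure ⟨hx1, hx2⟩)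
  intro y hy
  rw [frontier, hΩ.interior_eq] at hy
  have h1 := hcl hy.1
  have h3 : ¬ (r₁ < ‖y‖ ∧ ‖y‖ < r₂) := hy.2
  by_cases h4 : r₁ < ‖y‖
  · have : ‖y‖ = r₂ := le_antisymm h1.2 (not_lt.mp (fun h5 => h3 ⟨h4, h5⟩))
    exact hb2 y this
  · exact hb1 y (le_antisymm (not_lt.mp h4) h1.1)

end Vale.Agent.P100
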