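import Mathlib
import Vale.Agent.Lib.P100.MaxPrinciple
open Filter Topology InnerProductSpace Laplacian

namespace Vale.Agent.P100

variable {E : Type*} [NormedAddCommGroup E] [InnerProductSpace ℝ E] [FiniteDimensional ℝ E]

lemma laplacian_add_mul {f g : E → ℝ} {x : E} (hf : ContDiffAt ℝ 2 f x)
    (hg : ContDiffAt ℝ 2 g x) (c : ℝ) :
    Δ (fun y => f y + c * g y) x = Δ f x + c * Δ g x := by
  have h1 : (fun y => f y + c * g y) = f + c • g := by
    ext y; simp
  have h2 : ContDiffAt ℝ 2 (c • g) x := hg.const_smul c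
  rw [h1, hf.laplacian_add h2, laplacian_smul c hg]
  simp

/-- There is no positive strictly superharmonic function on the punctured plane. -/
theorem no_pos_superharmonic_punctured_plane (hE : Module.finrank ℝ E = 2) (u : E → ℝ)
    (hu : ∀ x, x ≠ 0 → ContDiffAt ℝ 2 u x) (hpos : ∀ x, x ≠ 0 → 0 < u x)
    (hlap : ∀ x, x ≠ 0 → Δ u x < 0) : False := by
  have : Nontrivial E := Module.nontrivial_of_finrank_pos (R := ℝ) (by omega)
  have hSne : (Metric.sphere (0 : E) 1).Nonempty := (NormedSpace.sphere_nonempty).mpr zero_le_one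
  have hne_of_norm_pos : ∀ x : E, 0 < ‖x‖ → x ≠ 0 := fun x hx => norm_pos_iff.mp hx
  have hcontOn : ∀ s : Set E, (∀ x ∈ s, 0 < ‖x‖) → ContinuousOn u s := fun s hs x hx =>
    (hu x (hne_of_norm_pos x (hs x hx))).continuousAt.continuousWithinAt
  obtain ⟨x₀, hx₀, hmin⟩ := (isCompact_sphere (0 : E) 1).exists_isMinOn hSne
    (hcontOn _ (fun x hx => by simp at hx; rw [hx]; norm_num))
  have hx₀n : ‖x₀‖ = 1 := by simpa using hx₀
  set m := u x₀ with hm
  have hmpos : 0 < m := hpos x₀ (hne_of_norm_pos x₀ (by rw [hx₀n]; norm_num))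
  have hS : ∀ x : E, ‖x‖ = 1 → m ≤ u x := fun x hx => hmin (by simpa using hx)
  have hloglap : ∀ x : E, x ≠ 0 → Δ (fun y : E => Real.log ‖y‖) x = 0 := by
    intro x hx
    rw [laplacian_log_norm hx, hE]
    simp
  -- exterior
  have hext : ∀ x : E, 1 < ‖x‖ → m ≤ u x := by
    intro x hx
    have hlogpos : 0 < Real.log ‖x‖ := Real.log_pos hx
    have key : ∀ ε : ℝ, 0 < ε → m ≤ u x + ε * Real.log ‖x‖ := by
      intro ε hε
      set R := max (‖x‖ + 1) (Real.exp (m / ε)) with hR
      have hxR : ‖x‖ < R := lt_of_lt_of_le (by linarith) (le_max_left _ _)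
      refine min_principle_annulus (h := fun y => u y + ε * Real.log ‖y‖) (r₁ := 1) (r₂ := R)
        ?_ ?_ ?_ ?_ x hx hxR
      · apply ContinuousOn.add (hcontOn _ (fun y hy => by linarith [hy.1]))
        apply ContinuousOn.mul continuousOn_const
        apply ContinuousOn.log continuous_norm.continuousOn
        intro y hy
        have : 0 < ‖y‖ := by linarith [hy.1]
        exact this.ne'
      · intro y hy1 _
        have hy0 : y ≠ 0 := hne_of_norm_pos y (by linarith)
        refine ⟨(hu y hy0).add (contDiffAt_const.mul (contDiffAt_log_norm hy0)), ?_⟩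
        rw [laplacian_add_mul (hu y hy0) (contDiffAt_log_norm hy0), hloglap y hy0]
        simpa using hlap y hy0
      · intro y hy
        simp only [hy, Real.log_one, mul_zero, add_zero]
        exact hS y hy
      · intro y hy
        have hy0 : y ≠ 0 := hne_of_norm_pos y (by rw [hy]; linarith)
        have h1 : m / ε ≤ Real.log R := by
          rw [Real.le_log_iff_exp_le (by linarith)]
          exact le_max_right _ _
        have h2 : m ≤ ε * Real.log R := by
          rw [div_le_iff₀ hε] at h1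
          linarith
        simp only [hy]
        linarith [hpos y hy0]
    by_contra hlt
    push Not at hlt
    have := key ((m - u x) / (2 * Real.log ‖x‖)) (by apply div_pos <;> linarith)
    have h3 : (m - u x) / (2 * Real.log ‖x‖) * Real.log ‖x‖ = (m - u x) / 2 := by
      field_simp
    rw [h3] at this
    linarith
  -- interior
  have hint : ∀ x : E, 0 < ‖x‖ → ‖x‖ < 1 → m ≤ u x := by
    intro x hx0 hx
    have hlogneg : Real.log ‖x‖ < 0 := Real.log_neg hx0 hx
    have key : ∀ ε : ℝ, 0 < ε → m ≤ u x + (-ε) * Real.log ‖x‖ := by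
      intro ε hε
      set δ := min (‖x‖ / 2) (Real.exp (-(m / ε))) with hδ
      have hδpos : 0 < δ := lt_min (by linarith) (Real.exp_pos _)
      have hxδ : δ < ‖x‖ := lt_of_le_of_lt (min_le_left _ _) (by linarith)
      refine min_principle_annulus (h := fun y => u y + (-ε) * Real.log ‖y‖) (r₁ := δ) (r₂ := 1)
        ?_ ?_ ?_ ?_ x hxδ hx
      · apply ContinuousOn.add (hcontOn _ (fun y hy => by linarith [hy.1]))
        apply ContinuousOn.mul continuousOn_const
        apply ContinuousOn.log continuous_norm.continuousOn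
        intro y hy
        have : 0 < ‖y‖ := by linarith [hy.1]
        exact this.ne'
      · intro y hy1 _
        have hy0 : y ≠ 0 := hne_of_norm_pos y (by linarith)
        refine ⟨(hu y hy0).add (contDiffAt_const.mul (contDiffAt_log_norm hy0)), ?_⟩
        rw [laplacian_add_mul (hu y hy0) (contDiffAt_log_norm hy0), hloglap y hy0]
        simpa using hlap y hy0
      · intro y hy
        have hy0 : y ≠ 0 := hne_of_norm_pos y (by rw [hy]; linarith)
        have h1 : Real.log δ ≤ -(m / ε) := by
          rw [Real.log_le_iff_le_exp hδpos]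
          exact min_le_right _ _
        have h2 : m ≤ (-ε) * Real.log δ := by
          have : m / ε ≤ - Real.log δ := by linarith
          rw [div_le_iff₀ hε] at this
          linarith
        simp only [hy]
        linarith [hpos y hy0]
      · intro y hy
        simp only [hy, Real.log_one, mul_zero, add_zero]
        exact hS y hy
    by_contra hlt
    push Not at hlt
    have := key ((m - u x) / (2 * (-Real.log ‖x‖))) (by apply div_pos <;> linarith)
    have h3 : -((m - u x) / (2 * (-Real.log ‖x‖))) * Real.log ‖x‖ = (m - u x) / 2 := by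
      have : Real.log ‖x‖ ≠ 0 := hlogneg.ne
      field_simp
    rw [h3] at this
    linarith
  have hx₀0 : x₀ ≠ 0 := hne_of_norm_pos x₀ (by rw [hx₀n]; norm_num)
  have hloc : IsLocalMin u x₀ := by
    filter_upwards [isOpen_compl_singleton.mem_nhds (show x₀ ∈ ({0} : Set E)ᶜ from hx₀0)] with y hy
    have hy0 : 0 < ‖y‖ := norm_pos_iff.mpr hy
    rcases lt_trichotomy ‖y‖ 1 with h | h | h
    · exact hint y hy0 h
    · exact hS y h
    · exact hext y h
  have := laplacian_nonneg_of_isLocalMin (hu x₀ hx₀0) hloc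
  linarith [hlap x₀ hx₀0]


/-- In dimension at least three: a positive function on the punctured unit ball which is
continuous at the origin cannot satisfy `-Δ u ≥ c₀ / |x|^2`. -/
theorem no_inverse_square_source (hE : 3 ≤ Module.finrank ℝ E) (u : E → ℝ)
    (hu : ∀ x, x ≠ 0 → ContDiffAt ℝ 2 u x) (hcont0 : ContinuousAt u 0)
    (hpos : ∀ x, x ≠ 0 → 0 < u x) {c₀ : ℝ} (hc₀ : 0 < c₀)
    (hlap : ∀ x, x ≠ 0 → ‖x‖ < 1 → Δ u x ≤ -(c₀ / ‖x‖ ^ 2)) : False := by
  have : Nontrivial E := Module.nontrivial_of_finrank_pos (R := ℝ) (by omega)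
  set n : ℝ := (Module.finrank ℝ E : ℝ) with hn
  have hn3 : (3 : ℝ) ≤ n := by rw [hn]; exact_mod_cast hE
  set s : ℝ := n - 2 with hs
  have hspos : 0 < s := by linarith
  set κ : ℝ := c₀ / (2 * s) with hκ
  have hκpos : 0 < κ := by positivity
  have hne_of_norm_pos : ∀ x : E, 0 < ‖x‖ → x ≠ 0 := fun x hx => norm_pos_iff.mp hx
  have hcontOn : ∀ t : Set E, (∀ x ∈ t, 0 < ‖x‖) → ContinuousOn u t := fun t ht x hx =>
    (hu x (hne_of_norm_pos x (ht x hx))).continuousAt.continuousWithinAt
  have main : ∀ x : E, 0 < ‖x‖ → ‖x‖ < 1 → 0 ≤ u x + κ * Real.log ‖x‖ := by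
    intro x hx0 hx1
    have key : ∀ ε : ℝ, 0 < ε → 0 ≤ (u x + κ * Real.log ‖x‖) + ε * ‖x‖ ^ (-s) := by
      intro ε hε
      -- choose δ
      have hev : ∀ᶠ δ in 𝓝[>] (0 : ℝ), -(ε / κ) < Real.log δ * δ ^ s :=
        (tendsto_log_mul_rpow_nhdsGT_zero hspos).eventually
          (lt_mem_nhds (by simpa using div_pos hε hκpos))
      obtain ⟨δ, hδ1, hδ2⟩ := (hev.and (Ioo_mem_nhdsGT hx0)).exists
      have hδpos : 0 < δ := hδ2.1
      have hδx : δ < ‖x‖ := hδ2.2
      have hδb : 0 ≤ κ * Real.log δ + ε * δ ^ (-s) := by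
        have h1 : 0 < δ ^ (-s) := Real.rpow_pos_of_pos hδpos _
        have h2 : κ * Real.log δ + ε * δ ^ (-s) = δ ^ (-s) * (κ * (Real.log δ * δ ^ s) + ε) := by
          have : δ ^ (-s) * δ ^ s = 1 := by
            rw [← Real.rpow_add hδpos]; simp
          calc κ * Real.log δ + ε * δ ^ (-s)
              = κ * Real.log δ * (δ ^ (-s) * δ ^ s) + ε * δ ^ (-s) := by rw [this]; ring
            _ = _ := by ring
        rw [h2]
        apply mul_nonneg h1.le
        have h3 : -(ε / κ) * κ = -ε := by field_simp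
        nlinarith
      refine min_principle_annulus
        (h := fun y => (u y + κ * Real.log ‖y‖) + ε * ‖y‖ ^ (-s)) (r₁ := δ) (r₂ := 1)
        ?_ ?_ ?_ ?_ x hδx hx1
      · apply ContinuousOn.add
        · apply ContinuousOn.add (hcontOn _ (fun y hy => by linarith [hy.1]))
          apply ContinuousOn.mul continuousOn_const
          apply ContinuousOn.log continuous_norm.continuousOn
          intro y hy
          have : 0 < ‖y‖ := by linarith [hy.1]
          exact this.ne'
        · apply ContinuousOn.mul continuousOn_const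
          apply ContinuousOn.rpow_const continuous_norm.continuousOn
          intro y hy
          have : 0 < ‖y‖ := by linarith [hy.1]
          exact Or.inl this.ne'
      · intro y hy1 hy2
        have hyn : 0 < ‖y‖ := by linarith
        have hy0 : y ≠ 0 := hne_of_norm_pos y hyn
        have hc1 : ContDiffAt ℝ 2 (fun y => u y + κ * Real.log ‖y‖) y :=
          (hu y hy0).add (contDiffAt_const.mul (contDiffAt_log_norm hy0))
        refine ⟨hc1.add (contDiffAt_const.mul (contDiffAt_norm_rpow hy0 _)), ?_⟩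
        rw [laplacian_add_mul hc1 (contDiffAt_norm_rpow hy0 _),
          laplacian_add_mul (hu y hy0) (contDiffAt_log_norm hy0), laplacian_log_norm hy0,
          laplacian_norm_rpow hy0]
        have h1 := hlap y hy0 hy2
        have h2 : -s + n - 2 = 0 := by rw [hs]; ring
        rw [← hn, h2]
        have h3 : κ * ((n - 2) / ‖y‖ ^ 2) = (c₀ / ‖y‖ ^ 2) / 2 := by
          rw [hκ, ← hs]; field_simp
        rw [h3]
        have h4 : 0 < c₀ / ‖y‖ ^ 2 := by positivity
        simp only [mul_zero, zero_mul, add_zero]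
        linarith
      · intro y hy
        have hy0 : y ≠ 0 := hne_of_norm_pos y (by rw [hy]; exact hδpos)
        simp only [hy]
        linarith [hpos y hy0]
      · intro y hy
        have hy0 : y ≠ 0 := hne_of_norm_pos y (by rw [hy]; norm_num)
        simp only [hy, Real.log_one, mul_zero, add_zero, Real.one_rpow, mul_one]
        linarith [hpos y hy0]
    have hP : 0 < ‖x‖ ^ (-s) := Real.rpow_pos_of_pos hx0 _
    by_contra hlt
    push Not at hlt
    have := key (-(u x + κ * Real.log ‖x‖) / (2 * ‖x‖ ^ (-s))) (by apply div_pos <;> linarith)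
    have h3 : -(u x + κ * Real.log ‖x‖) / (2 * ‖x‖ ^ (-s)) * ‖x‖ ^ (-s)
        = -(u x + κ * Real.log ‖x‖) / 2 := by
      field_simp
    rw [h3] at this
    linarith
  -- contradiction near the origin
  have h1 : ∀ᶠ x in 𝓝[≠] (0 : E), u x < u 0 + 1 :=
    (hcont0.tendsto.eventually (gt_mem_nhds (by linarith))).filter_mono nhdsWithin_le_nhds
  have h2 : ∀ᶠ x in 𝓝[≠] (0 : E), Real.log ‖x‖ < -((u 0 + 1) / κ) :=
    (Real.tendsto_log_nhdsGT_zero.comp tendsto_norm_nhdsNE_zero).eventually
      (eventually_lt_atBot _)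
  have h3 : ∀ᶠ x in 𝓝[≠] (0 : E), ‖x‖ < 1 :=
    (tendsto_norm_nhdsNE_zero.eventually (Ioo_mem_nhdsGT one_pos)).mono fun x hx => hx.2
  have h4 : ∀ᶠ x in 𝓝[≠] (0 : E), x ≠ 0 := eventually_mem_nhdsWithin
  obtain ⟨x, hx1, hx2, hx3, hx4⟩ := (h1.and (h2.and (h3.and h4))).exists
  have h5 := main x (norm_pos_iff.mpr hx4) hx3
  have h6 : κ * Real.log ‖x‖ < -(u 0 + 1) := by
    have := mul_lt_mul_of_pos_left hx2 hκpos
    have h7 : κ * -((u 0 + 1) / κ) = -(u 0 + 1) := by field_simp
    linarith
  linarith

end Vale.Agent.P100
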